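import Vale.Agent.Lib.P371.Sharp.Final

open MeasureTheory

namespace Vale.Agent.Results.P371.C_sharp

/-- The one-dimensional Lieb-Thirring conjecture at `γ = 1`, in its variational form: for every
`L²`-orthonormal family `φ_1,…,φ_N` in `H¹(ℝ;ℂ)` and every measurable `W ≥ 0` with `∫ W^{3/2} < ∞`,
one has `∑ⱼ ∫ W |φⱼ|² ≤ ∑ⱼ ∫ |φⱼ'|² + (4/(3√3 π)) ∫ W^{3/2}`. The form of `H¹` used here:
`φ` and `φ'` are square integrable and `φ` is the primitive of `φ'`. -/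
theorem result {N : ℕ} (φ φ' : Fin N → ℝ → ℂ)
    (hφ : ∀ j, MemLp (φ j) 2 volume) (hφ' : ∀ j, MemLp (φ' j) 2 volume)
    (hftc : ∀ j, ∀ a b : ℝ, ∫ t in a..b, φ' j t = φ j b - φ j a)
    (orth : ∀ i j, ∫ x, (starRingEnd ℂ) (φ i x) * φ j x = if i = j then (1 : ℂ) else 0)
    (W : ℝ → ℝ) (hWm : Measurable W) (hW : ∀ x, 0 ≤ W x)
    (hWi : Integrable fun x => W x ^ (3 / 2 : ℝ)) :
    (∀ j, Integrable fun x => W x * ‖φ j x‖ ^ 2) ∧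
    ∑ j, ∫ x, W x * ‖φ j x‖ ^ 2 ≤
      (∑ j, ∫ x, ‖φ' j x‖ ^ 2) + (4 / (3 * Real.sqrt 3 * Real.pi)) * ∫ x, W x ^ (3 / 2 : ℝ) :=
  Vale.Agent.Lib.P371.Sharp.main_sharp φ φ' hφ hφ' hftc orth W hWm hW hWi

end Vale.Agent.Results.P371.C_sharp
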