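import Vale.Agent.Lib.P371.SharpM.FinalM

open MeasureTheory
open scoped Matrix ComplexOrder

namespace Vale.Agent.Results.P371.D_matrix

/-- For every orthonormal family in `H¹(ℝ; ℂ^m)` and every positive semidefinite matrix potential `W`
with finite `∫ tr W^{3/2}`, one has
`∑ⱼ ∫ ⟨ψⱼ, W ψⱼ⟩ ≤ ∑ⱼ ∫ ‖ψⱼ'‖² + (4/(3√3π)) ∫ tr W^{3/2}`, with the sharp constant, uniform in `m`
and in the number of functions. The eigenvalues of `W x` are those of the spectral theorem of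
Mathlib, so the integrand on the right is `tr (W x)^{3/2}`. The form of `H¹` used here: `ψ` and `ψ'`
are square integrable and `ψ` is the primitive of `ψ'`. -/
theorem result {m N : ℕ} (ψ ψ' : Fin N → ℝ → EuclideanSpace ℂ (Fin m))
    (hψ : ∀ j, MemLp (ψ j) 2 volume) (hψ' : ∀ j, MemLp (ψ' j) 2 volume)
    (hftc : ∀ j, ∀ a b : ℝ, ∫ t in a..b, ψ' j t = ψ j b - ψ j a)
    (orth : ∀ i j, ∫ x, inner ℂ (ψ i x) (ψ j x) = if i = j then (1 : ℂ) else 0)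
    (W : ℝ → Matrix (Fin m) (Fin m) ℂ) (hWm : ∀ a b, Measurable fun x => W x a b)
    (hW : ∀ x, (W x).PosSemidef)
    (htr : Integrable fun x => ∑ a, ((hW x).isHermitian.eigenvalues a) ^ (3 / 2 : ℝ)) :
    (∀ j, Integrable fun x => (star (ψ j x).ofLp ⬝ᵥ (W x *ᵥ (ψ j x).ofLp)).re) ∧
    ∑ j, ∫ x, (star (ψ j x).ofLp ⬝ᵥ (W x *ᵥ (ψ j x).ofLp)).re ≤
      (∑ j, ∫ x, ‖ψ' j x‖ ^ 2) +
        (4 / (3 * Real.sqrt 3 * Real.pi)) *
          ∫ x, ∑ a, ((hW x).isHermitian.eigenvalues a) ^ (3 / 2 : ℝ) :=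
  Vale.Agent.Lib.P371.SharpM.main_sharp_matrix ψ ψ' hψ hψ' hftc orth W hWm hW htr

end Vale.Agent.Results.P371.D_matrix
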