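import Vale.Agent.Lib.P371.Mix.Chord

open MeasureTheory
open scoped Matrix ComplexOrder

namespace Vale.Agent.Results.P371.E_chord

/-- For `1 ≤ γ < 3/2`, every orthonormal family in `H¹(ℝ; ℂ^m)` and every positive semidefinite matrix
potential `W` with finite `∫ tr W^{γ+1/2}`, with `e_j = ∫ ⟨ψⱼ, W ψⱼ⟩ - ∫ ‖ψⱼ'‖²` one has
`∑ⱼ (e_j)₊^γ ≤ (4/3)^{3/2-γ} L^cl_γ ∫ tr W^{γ+1/2}`, where `L^cl_γ = Γ(γ+1) / (2 √π Γ(γ+3/2))`, uniformly in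
`m` and in the number of functions. The eigenvalues of `W x` are those of the spectral theorem of
Mathlib, so the integrand on the right is `tr (W x)^{γ+1/2}`. The form of `H¹` used here: `ψ` and `ψ'`
are square integrable and `ψ` is the primitive of `ψ'`. -/
theorem result {γ : ℝ} (h1 : 1 ≤ γ) (h2 : γ < 3 / 2) {m N : ℕ}
    (ψ ψ' : Fin N → ℝ → EuclideanSpace ℂ (Fin m))
    (hψ : ∀ j, MemLp (ψ j) 2 volume) (hψ' : ∀ j, MemLp (ψ' j) 2 volume)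
    (hftc : ∀ j, ∀ a b : ℝ, ∫ t in a..b, ψ' j t = ψ j b - ψ j a)
    (orth : ∀ i j, ∫ x, inner ℂ (ψ i x) (ψ j x) = if i = j then (1 : ℂ) else 0)
    (W : ℝ → Matrix (Fin m) (Fin m) ℂ) (hWm : ∀ a b, Measurable fun x => W x a b)
    (hW : ∀ x, (W x).PosSemidef)
    (htr : Integrable fun x => ∑ a, ((hW x).isHermitian.eigenvalues a) ^ (γ + 1 / 2)) :
    (∀ j, Integrable fun x => (star (ψ j x).ofLp ⬝ᵥ (W x *ᵥ (ψ j x).ofLp)).re) ∧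
    ∑ j, (max ((∫ x, (star (ψ j x).ofLp ⬝ᵥ (W x *ᵥ (ψ j x).ofLp)).re) - ∫ x, ‖ψ' j x‖ ^ 2) 0) ^ γ ≤
      (4 / 3 : ℝ) ^ (3 / 2 - γ) *
        (Real.Gamma (γ + 1) / (2 * Real.sqrt Real.pi * Real.Gamma (γ + 3 / 2))) *
        ∫ x, ∑ a, ((hW x).isHermitian.eigenvalues a) ^ (γ + 1 / 2) :=
  Vale.Agent.Lib.P371.Mix.chord_bound h1 h2 ψ ψ' hψ hψ' hftc orth W hWm hW htr

end Vale.Agent.Results.P371.E_chord
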